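import Vale.Agent.P154.D3.K0.Data
import Vale.Agent.P154.Check2

namespace Vale.Agent.P154.D3.K0

open Cert

/-- Chart (0, 0). -/
def P00 : Pb := chartPb false false Nd w G []

/-- Chart (0, 1). -/
def P01 : Pb := chartPb false true Nd w G []

/-- Chart (1, 0). -/
def P10 : Pb := chartPb true false Nd w G []

/-- Chart (1, 1). -/
def P11 : Pb := chartPb true true Nd w G []

/-- The offset. -/
def KK : ℕ := 7975054838978857957869783595079038148815929134873574372267239147002092943367488761318118323875971614518937350748146290561474995443284105875630084237401365691741820338695355818455664737390057540900825684807418526691288993393970109201605650784885019821709886980841347925777256289930194351608431522864880360956238794237301100891415162717067858756153598763756850431348717233286605102660510814000306243542621599170963477008725517984745855647744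

end Vale.Agent.P154.D3.K0
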