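import Vale.Agent.P154.D3.K0.Charts

set_option maxRecDepth 100000

namespace Vale.Agent.P154.D3.K0

open Cert InT OutT

/-- Certificate tree. -/
def tr00_r1000110 : OutT :=
(A (B (A (O (c (c (c l l) (c l l)) (c (c (c l l) (d l l)) (d (c k k) (c (d (c l l) l) (d (c k k) (c (c l l) (d (d k (c k k)) (c l l))))))))) (B (O (c (c (c l l) (c l l)) (c (d (c l (c l l)) (c l l)) (d (c k k) (c (d (c l l) l) (d (c k k) (c l (d (d k (c k k)) (c l l))))))))) (O (c (c (c l l) (c l l)) (c (c (c l l) (d l l)) (c (d k (d (c l l) l)) (d k (d (c k k) (c l (d (d k (c k k)) (c l l))))))))))) (A (O (c (c (c l l) (c l l)) (c (c (c l l) (d l l)) (c (d k (d l l)) (d k (d (c k k) (c (c l l) (d (c k k) (c l l))))))))) (B (O (c (c (c l l) (c l l)) (c (c (c l l) (d l l)) (c (d k (d (c l l) l)) (d k (d (c k k) (c l (d (c k k) (c l l))))))))) (O (c (c (c l l) (c l l)) (c (c (c l l) (d l l)) (c (d k (d l l)) (d k (d (c k k) (c l (d (c k k) (c l l)))))))))))) (B (A (B (A (O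 (c (c (c l l) (c l l)) (c (d (d l (c l l)) (c l l)) (d (c k k) (c (d l l) (d (d k (c k k)) (c l l))))))) (O (c (c (c l l) (c l l)) (c (d (d (c l l) (c l l)) (c l l)) (d (c k k) (c (d l l) (d (c k k) (c l l)))))))) (A (O (c (c (c l l) (c l l)) (c (d (c l l) (c l l)) (d (c k k) (c (d l l) (d (d k (c k k)) (c l l))))))) (O (c (c (c l l) (c l l)) (c (d (c l (c l l)) (c l l)) (d (c k k) (c (d l l) (d (c k k) (c l l))))))))) (B (A (O (c (c (c l l) (c l (c l l))) (c (d (d (c l l) (c l l)) (c l l)) (d (c k k) (c (d (c l l) l) (d (c k k) (d (c l l) l))))))) s) (A (O (c (c (c l l) (c l l)) (c (d (d (c l l) (c l l)) (c l l)) (d (c k k) (c (d l l) (d (c k k) (d (c l l) l))))))) (O (c (c (c l l) (c l (c l l))) (c (d (d (c l l) (c l l)) (c l (c l l))) (d (c k k) (c (d (c l l) l) (d (c k k) (d (c l l) l)))))))))) (A (B (A (O (c (c (c l l) (c l l)) (c (c (c l l) (d l l)) (d (c k k) (c (d l l) (d (c k k) (c l l))))))) (O (c (c (c l l) (c l l)) (c (c (c l l)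 (d l l)) (d (c k k) (c (d l l) (d (c k k) (c l l)))))))) (A (O (c (c (c l l) (c l l)) (c (c (c l l) (d l l)) (d (c k k) (c (d l l) (d (c k k) (c l l))))))) (O (c (c (c l l) (c l l)) (c (c (c l l) (d l l)) (d (c k k) (c (d l l) (d (c k k) (c l l))))))))) (B (A (O (c (c (c l l) (c l l)) (c (c (c l l) (d (c l l) l)) (d (c k k) (c (d l l) (d (c k k) (d (c l l) l))))))) (O (c (c (c l l) (c l l)) (c (c (d l l) (d (d l l) l)) (d (c k k) (c (d l l) (d (c k k) (d (c l l) l)))))))) (A (O (c (c (c l l) (c l l)) (c (c (c l l) (d l l)) (d (c k k) (c (d l l) (d (c k k) (d (c l l) l))))))) (O (c (c (c l l) (c l l)) (c (c (c l l) (d l l)) (d (c k k) (c (d l l) (d (c k k) (d (c l l) (c l l)))))))))))))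

theorem s00_r1000110 : Sound P00 36864 2048 16384 4096 :=
  chkOut2_sound P00 KK tr00_r1000110 36864 2048 16384 4096 (by decide +kernel)

end Vale.Agent.P154.D3.K0
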