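import Vale.Agent.P154.D3.K0.Charts

set_option maxRecDepth 100000

namespace Vale.Agent.P154.D3.K0

open Cert InT OutT

/-- Certificate tree. -/
def tr00_r101010 : OutT :=
(B (A (B (A (O (c (c (c l l) (c l l)) (c (c l l) (d (c k k) (c (c l l) (d (d k l) (c l l))))))) (O (c (c (c l l) (c l l)) (c (c l l) (c (d k (c l l)) (d k (d (c k k) (c l (d l l))))))))) (A (O (c (c (c l l) (c l l)) (c (c l l) (d (c k k) (c (c l l) (d (d k l) (c l (c l l)))))))) (O (c (c (c l l) (c l l)) (c (c l l) (c (d k (c l l)) (d k (d (c k k) (c l (d l l)))))))))) (B (A (O (c (c (c l l) (c l l)) (c (c l l) (c (d k (c l l)) (d k (d (c k k) (c l (d (c k k) (c l l))))))))) (B (O (c (c (c l l) (c l l)) (c (c l l) (c (d k (c l l)) (d k (d (c k k) (c l (d (c k k) l)))))))) (O (c (c (c l l) (c l l)) (c (c l l) (c (d k (c l l)) (d k (d (c k k) (c l (d (c k k) (c l l))))))))))) (A (O (c (c (c l l) (c l l)) (c (c l l) (c (d k (c l l)) (d k (d (c k k) (c l (d (d k l) (c l l))))))))) (B (O (c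 (c (c l l) l) (c (c l l) (c (d k (c l l)) (d k (d (c k k) (c l (d (c k k) (c l l))))))))) (O (c (c (c l l) l) (c (c l l) (c (d k (c l l)) (d k (c (d k l) (d k (d (d k l) (c l l))))))))))))) (A (B (A (O (c (c (c l l) (c l l)) (c (c l l) (c (d k (c l l)) (d k (d (d k (c k k)) (c l (c l l)))))))) (O (c (c (c l l) (c l l)) (c (c l l) (c (d k (c l l)) (d k (d (c k k) (c l (d l l))))))))) (A (O (c (c (c l l) (c l l)) (c (c l l) (c (d k l) (d k (d (d k (c k k)) (c l (c l l)))))))) (O (c (c (c l l) l) (c (c l l) (c (d k (c l l)) (d k (d (c k k) (c l (d l l)))))))))) (B (A (O (c (c (c l l) l) (c (c l l) (c (d k (c l l)) (d k (c (d k l) (d k (d (d k (c k k)) (c l (c l l)))))))))) (B (O (c (c (c l l) l) (c (c l l) (c (d k (c l l)) (d k (c (d k l) (d k (d (d k l) (c l l))))))))) (O (c (c (c l l) l) (c (c l l) (c (d k (c l l)) (d k (c (d k l) (d k (d (d k (c k k)) (c l (c l l)))))))))))) (A (O (c (c (c l l) l) (c (c l l) (c (d k (c l l)) (d k (c (d k l) (d k (c (c l l)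 (d k (d l l)))))))))) (B (O (c (c (c l l) l) (c (c l l) (c (d k (c l l)) (d k (c (d k l) (d k (c (c l l) (d k (c l l)))))))))) (O (c (c (c l l) l) (c (c l l) (c (d k (c l l)) (d k (c (d k l) (d k (c (c l l) (d k (d l l)))))))))))))))

theorem s00_r101010 : Sound P00 32768 2048 49152 8192 :=
  chkOut2_sound P00 KK tr00_r101010 32768 2048 49152 8192 (by decide +kernel)

end Vale.Agent.P154.D3.K0
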