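import Vale.Agent.P154.D3.K0.Charts

set_option maxRecDepth 100000

namespace Vale.Agent.P154.D3.K0

open Cert InT OutT

/-- Certificate tree. -/
def tr00_r10111000 : OutT :=
(B (A (B (A (O (c (c l l) (c (c l l) (c (d k l) (d k (c (d k l) (d k (d l l)))))))) (O (c (c l l) (c (c l l) (c (d k (c l l)) (d k (c (d k l) (d k (d (c k k) (c l l)))))))))) (A (O (c (c l l) (c (c l l) (c (d k l) (d k (c (d k l) (d k (d l l)))))))) (O (c (c l l) (c (c l l) (c (d k l) (d k (c (d k l) (d k (d (c k k) (c l l))))))))))) (B (A (O (c (c l l) (c (c l l) (c (d k (c l l)) (d k (c (d k l) (d k (d (d k (c k k)) (c l (c l l)))))))))) (B (O (c (c l l) (c (c l l) (c (d k l) (d k (c (d k l) (d k (d (c k k) l)))))))) (O (c (c l l) (c (c l l) (c (d k l) (d k (c (d k l) (d k (d (c k k) l)))))))))) (A (O (c (c l l) (c (c l l) (c (d k (c l l)) (d k (c (d k l) (d k (c (c l l) (d k (c l l)))))))))) (B (O (c (c l l) (c (c l l) (c (d k l) (d k (c (d k l) (d k (d (c k k) l)))))))) (O (c (c l l) (c (c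 l l) (c (d k l) (d k (c (d k l) (d k (d (c k k) l)))))))))))) (A (B (A (O (c (c l l) (c (c l l) (c (d k l) (d k (c (d k l) (d k (d l l)))))))) (O (c (c l l) (c (c l l) (c (d k l) (d k (c (d k l) (d k (d (c k k) (c l l)))))))))) (A (O (c (c l l) (c (c l l) (c (d k l) (d k (c (d k l) (d k (d l l)))))))) (O (c (c l l) (c (c l l) (c (d k l) (d k (c (d k l) (d k (d (d k l) (c l l))))))))))) (B (A (O (c (c l l) (c (c l l) (c (d k l) (d k (c (d k l) (d k (c (c l l) (d k (d l l)))))))))) (B (O (c (c l l) (c (c l l) (c (d k l) (d k (c (d k l) (d k (d (c k k) (c l l))))))))) (O (c (c l l) (c (c l l) (c (d k l) (d k (c (d k l) (d k (d (c k k) (c l l))))))))))) (A (B (O (c (c l l) (c (c l l) (c (d k l) (d k (c (c l l) (d k (d l l)))))))) (O (c (c l l) (c (c l l) (c (d k l) (d k (c (c l l) (d k (d l l))))))))) (B (O (c (c l l) (c (c l l) (c (d k l) (d k (c (d k l) (d k (d (c k k) (c l l))))))))) (O (c (c l l) (c (c l l) (c (d k l) (d k (c (d k l) (d k (d (c k k) (c l l))))))))))))))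

theorem s00_r10111000 : Sound P00 40960 1024 49152 4096 :=
  chkOut2_sound P00 KK tr00_r10111000 40960 1024 49152 4096 (by decide +kernel)

end Vale.Agent.P154.D3.K0
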