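import Vale.Agent.P154.D3.K0.Charts

set_option maxRecDepth 100000

namespace Vale.Agent.P154.D3.K0

open Cert InT OutT

/-- Certificate tree. -/
def tr00_r101111010 : OutT :=
(A (B (A (B (A (O (c (c l l) (c (c l l) (c (d k l) (d k (c (d k l) (d k (d l l)))))))) (O (c (c l l) (c (c l l) (c (d k l) (d k (c (d k l) (d k (d l l))))))))) (A (O (c (c l l) (c (c l l) (c (d k l) (d k (c (d k l) (d k (d l l)))))))) (O (c (c l l) (c (c l l) (c (d k l) (d k (c (d k l) (d k (d l l)))))))))) (B (A (O (c (c l l) (c (c l l) (c (d k l) (d k (c (d k l) (d k (d l l)))))))) (O (c (c l l) (c (c l l) (c (d k l) (d k (c (d k l) (d k (d (c k k) l))))))))) (A (O (c (c l l) (c (c l l) (c (d k l) (d k (c (d k l) (d k (d l l)))))))) (O (c (c l l) (c (c l l) (c (d k l) (d k (c (d k l) (d k (d (c k k) l))))))))))) (A (B (A (O (c (c l l) (c (c l l) (c (d k l) (d k (c (c l l) (d k (d l l)))))))) (O (c (c l l) (c (c l l) (c (d k l) (d k (c (c l l) (d k (d l l))))))))) (A (O (c (c l l) (c (c l l)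 (c (d k l) (d k (c (c l l) (d k (d l l)))))))) (O (c (c l l) (c (c l l) (c (d k l) (d k (c (c l l) (d k (d l l)))))))))) (B (A (O (c (c l l) (c (c l l) (c (d k l) (d k (c (d k l) (d k (d l l)))))))) (O (c (c l l) (c (c l l) (c (d k l) (d k (c (d k l) (d k (d (c k k) l))))))))) (A (O (c (c l l) (c (c l l) (c (d k l) (d k (c (c l l) (d k (d l l)))))))) (O (c (c l l) (c (c l l) (c (d k l) (d k (c (d k l) (d k (d (c k k) l)))))))))))) (B (A (B (A s s) (A (O (c (c l l) (c (c l l) (c (d k l) (d k (c (d k l) (d k (d (d k l) (c l l))))))))) (O (c (c l l) (c (c l l) (c (d k l) (d k (c (d k l) (d k (d (d k l) (c l l))))))))))) (B s (A s s))) (A (B (A (O (c (c l l) (c (c l l) (c (d k l) (d k (c (d k l) (d k (d (c k k) (c l l))))))))) (O (c (c l l) (c (c l l) (c (d k l) (d k (c (d k l) (d k (d (d k l) (c l l)))))))))) (A (O (c (c l l) (c (c l l) (c (d k l) (d k (c (d k l) (d k (d (c k k) (c l l))))))))) (O (c (c l l) (c (c l l) (c (d k l) (d k (c (d k l) (d k (d (d k l) (c l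 l))))))))))) (B (A (O (c (c l l) (c (c l l) (c (d k l) (d k (c (d k l) (d k (d (d k (c k k)) (c l (d l l)))))))))) (B s (O (c (c l l) (c (c l l) (c (d k l) (d k (c (c l l) (d k (d l l)))))))))) (A (O (c (c l l) (c (c l l) (c (d k l) (d k (c (d k l) (d k (d (d k (c k k)) (c l (d l l)))))))))) (B (O (c (c l l) (c (c l l) (c (d k l) (d k (c (c l l) (d k (d l l)))))))) (O (c (c l l) (c l (c (d k l) (d k (c (c l l) (d k (d l l))))))))))))))

theorem s00_r101111010 : Sound P00 47104 1024 49152 2048 :=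
  chkOut2_sound P00 KK tr00_r101111010 47104 1024 49152 2048 (by decide +kernel)

end Vale.Agent.P154.D3.K0
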