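import Vale.Agent.P154.D3.K0.Charts

set_option maxRecDepth 100000

namespace Vale.Agent.P154.D3.K0

open Cert InT OutT

/-- Certificate tree. -/
def tr00_r110 : OutT :=
(A s s)

theorem s00_r110 : Sound P00 49152 8192 0 16384 :=
  chkOut2_sound P00 KK tr00_r110 49152 8192 0 16384 (by decide +kernel)

end Vale.Agent.P154.D3.K0
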