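import Vale.Agent.P154.D3.K0.Charts

set_option maxRecDepth 100000

namespace Vale.Agent.P154.D3.K0

open Cert InT OutT

/-- Certificate tree. -/
def tr00_r111011100 : OutT :=
(A (B (A (B (A s s) (A (B s (A s s)) (B s (A s s)))) (B s (A s s))) (A (B (A (B (A (O (c l (c l (c l (d k (c l (d k l))))))) (O (c l (c l (c l (d k (c l (d k l)))))))) (A (O (c l (c l (c l (d k (c l (d k l))))))) (O (c l (c l (c l (d k (c l (d k l))))))))) (B (A (O (c l (c l (c l (d k (c l (d k l))))))) s) (A (O (c l (c l (c l (d k (c l (d k l))))))) (O (c l (c l (c l (d k (c l (d k l)))))))))) (A (B (A (O (c l (c l (c l (d k (c l (d k l))))))) (O (c l (c l (c l (d k (c l (d k l)))))))) (A (O (c l (c l (c l (d k (c l (d k l))))))) (O (c l (c l (c l (d k (c l (d k l))))))))) (B (A (O (c l (c l (c l (d k (c l (d k l))))))) (O (c l (c l (c l (d k (c l (d k l)))))))) (A (O (c l (c l (c l (d k (c l (d k l))))))) (O (c l (c l (c l (d k (c l (d k l))))))))))) (B (A (B (A s s) (A (O (c l (c l (c l (d k (c l (d k l))))))) (O (c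 l (c l (c l (d k (c l (d k l))))))))) (B (A s s) (A (O (c l (c l (c l (d k (c l (d k l))))))) s))) (A (B (A (O (c l (c l (c l (d k (c l (d k l))))))) (O (c l (c l (c l (d k (c l (d k l)))))))) (A (O (c l (c l (c l (d k (c l (d k l))))))) (O (c l (c l (c l (d k (c l (d k l))))))))) (B (A (O (c l (c l (c l (d k (c l (d k l))))))) (O (c l (c l (c l (d k (c l (d k l)))))))) (A (O (c l (c l (c l (d k (c l (d k l))))))) (O (c l (c l (c l (d k (c l (d k l))))))))))))) (B (A (B s (A s s)) s) (A (B (A (B s (A s s)) (B s (A s s))) (A (B (A (O (c l (c l (c l (d k (c l (d k l))))))) (O (c l (c l (c l (d k (c l (d k (c l l))))))))) (A (O (c l (c l (c l (d k (c l (d k l))))))) (O (c l (c l (c l (d k (c l (d k (c l l)))))))))) (B (A (O (c l (c l (c l (d k (c l (d k (c l l)))))))) s) (A (O (c l (c l (c l (d k (c l (d k (c l l)))))))) (O (c l (c l (c l (d k (c l (d k (c l l)))))))))))) (B (A s s) (A (B (A s s) (A (O (c l (c l (c l (d k (c l (d k (c l l)))))))) (O (c l (c l (c l (d k (c l (d k (c l l))))))))))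 (B (A s s) (A (O (c l (c l (c l (d k (c l (d k (d l l)))))))) (O (c l (c l (c l (d k (c l (d k (d l l)))))))))))))))

theorem s00_r111011100 : Sound P00 53248 1024 57344 2048 :=
  chkOut2_sound P00 KK tr00_r111011100 53248 1024 57344 2048 (by decide +kernel)

end Vale.Agent.P154.D3.K0
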