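import Vale.Agent.P154.D3.K0.Charts

set_option maxRecDepth 100000

namespace Vale.Agent.P154.D3.K0

open Cert InT OutT

/-- Certificate tree. -/
def tr00_r11101110110 : OutT :=
(A (B (A (B (A (O (c l (c l (c l (d k (c l (d k l))))))) (O (c l (c l (c l (d k (c l (d k (c l l))))))))) (A (O (c l (c l (c l (d k (c l (d k l))))))) (O (c l (c l (c l (d k (c l (d k (c l l)))))))))) (B (A (O (c l (c l (c l (d k (c l (d k (c l l)))))))) (O (c l (c l (c l (d k (c l (d k (c l l))))))))) (A (O (c l (c l (c l (d k (c l (d k (c l l)))))))) (O (c l (c l (c l (d k (c l (d k (c l l))))))))))) (A (B (A (O (c l (c l (c l (d k (c l (d k l))))))) (O (c l (c l (c l (d k (c l (d k l)))))))) (A (O (c l (c l (c l (d k (c l (d k l))))))) (O (c l (c l (c l (d k (c l (d k l))))))))) (B (A (O (c l (c l (c l (d k (c l (d k (c l l)))))))) (O (c l (c l (c l (d k (c l (d k (c l l))))))))) (A (O (c l (c l (c l (d k (c l (d k (c l l)))))))) (O (c l (c l (c l (d k (c l (d k (c l l)))))))))))) (B (A (B (A (O (c l (c l (c l (d k (c l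 (d k (c l l)))))))) (O (c l (c l (c l (d k (c l (d k (c l l))))))))) (A (O (c l (c l (c l (d k (c l (d k (c l l)))))))) (O (c l (c l (c l (d k (c l (d k (c l l)))))))))) (B (A (O (c l (c l (c l (d k (c l (d k (c l l)))))))) (O (c l (c l (c l (d k (c l (d k (d l l))))))))) (A (O (c l (c l (c l (d k (c l (d k (c l l)))))))) (O (c l (c l (c l (d k (c l (d k (d l l))))))))))) (A (B (A (O (c l (c l (c l (d k (c l (d k (c l l)))))))) (O (c l (c l (c l (d k (c l (d k (c l l))))))))) (A (O (c l (c l (c l (d k (c l (d k (c l l)))))))) (O (c l (c l (c l (d k (c l (d k (c l l)))))))))) (B (A (O (c l (c l (c l (d k (c l (d k (c l l)))))))) (O (c l (c l (c l (d k (c l (d k (d l l))))))))) (A (O (c l (c l (c l (d k (c l (d k (c l l)))))))) (O (c l (c l (c l (d k (c l (d k (c l l)))))))))))))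

theorem s00_r11101110110 : Sound P00 54272 512 61440 1024 :=
  chkOut2_sound P00 KK tr00_r11101110110 54272 512 61440 1024 (by decide +kernel)

end Vale.Agent.P154.D3.K0
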