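import Vale.Agent.P154.D3.K0.Charts

set_option maxRecDepth 100000

namespace Vale.Agent.P154.D3.K0

open Cert InT OutT

/-- Certificate tree. -/
def tr00_r111110101011 : OutT :=
(B (A (B (A (B (O (c l (c l (c l (d k (c l (d k (d l l)))))))) (O (c l (c l (c l (d k (c l (d k (d l l))))))))) (B (O (c l (c l (c l (d k (c l (d k (d l (c l l))))))))) (O (c l (c l (c l (d k (c l (d k (d l (c l l))))))))))) (A (B (O (c l (c l (c l (d k (c l (d k (d l l)))))))) (O (c l (c l (c l (d k (c l (d k (d l l))))))))) (B (O (c l (c l (c l (d k (c l (d k (d l (c l l))))))))) (O (c l (c l (c l (d k (c l (d k (d l (c l l)))))))))))) (B (A (B (O (c l (c l (c l (d k (c l (d k (d l (c l l))))))))) (O (c l (c l (c l (d k (c l (d k (d l (c l l)))))))))) (B (O (c l (c l (c l (d k (c l (d k (d l (d l l))))))))) (O (c l (c l (c l (d k (c l (d k (d l (d l l))))))))))) (A (B (O (c l (c l (c l (d k (c l (d k (d l (c l l))))))))) (O (c l (c l (c l (d k (c l (d k (d l (c l l)))))))))) (B (O (c l (c l (c l (d k (c l (d k (d l (d l l)))))))))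 (O (c l (c l (c l (d k (c l (d k (d l (c l l))))))))))))) (A (B (A (B (O (c l (c l (c l (d k (c l (d k (d l l)))))))) (O (c l (c l (c l (d k (c l (d k (d l l))))))))) (B (O (c l (c l (c l (d k (c l (d k (d l (c l l))))))))) (O (c l (c l (c l (d k (c l (d k (d l (c l l))))))))))) (A (B (O (c l (c l (c l (d k (c l (d k (d l l)))))))) (O (c l (c l (c l (d k (c l (d k (d l l))))))))) (B (O (c l (c l (c l (d k (c l (d k (d l (c l l))))))))) (O (c l (c l (c l (d k (c l (d k (d l (c l l)))))))))))) (B (A (B (O (c l (c l (c l (d k (c l (d k (d l (c l l))))))))) (O (c l (c l (c l (d k (c l (d k (d l (c l l)))))))))) (B (O (c l (c l (c l (d k (c l (d k (d l (c l l))))))))) (O (c l (c l (c l (d k (c l (d k (d l (c l l))))))))))) (A (B (O (c l (c l (c l (d k (c l (d k (d l (c l l))))))))) (O (c l (c l (c l (d k (c l (d k (d l (c l l)))))))))) (B (O (c l (c l (c l (d k (c l (d k (d l (c l l))))))))) (O (c l (c l (c l (d k (c l (d k (d l (c l l))))))))))))))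

theorem s00_r111110101011 : Sound P00 57856 256 63488 1024 :=
  chkOut2_sound P00 KK tr00_r111110101011 57856 256 63488 1024 (by decide +kernel)

end Vale.Agent.P154.D3.K0
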