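import Vale.Agent.P154.D3.K0.Charts

set_option maxRecDepth 100000

namespace Vale.Agent.P154.D3.K0

open Cert InT OutT

/-- Certificate tree. -/
def tr01_r100 : OutT :=
(A (B (A (B (A (O (c (c (c l l) (c l (c l l))) (c (c (c l (d l k)) k) k))) (O (c (c (c l l) (c l (c l l))) (c (c (c (c l l) (d l k)) k) k)))) (A (O (c (c (c l l) (c l (c l l))) (c (c (c l (d l k)) k) k))) (O (c (c (c l l) (c l (c l l))) (c (c (c l (d l k)) k) k))))) (B (A (O (c (c l (c l (d l (c l (c l l))))) (c (c (d (d l (c l k)) (c (c (c l l) (c (c l k) k)) k)) k) k))) (B s (A s s))) (A (O (c (c (c l l) (c (c l l) (c l (c l l)))) (c (c (c (d l (c l l)) (d (c l k) k)) k) k))) (B (A (O (c (c l (c l (d l (c l l)))) (c (c (d (c l l) (c (c l l) k)) k) k))) s) (O (c (c (c l l) (c (c l l) (d (c l l) (c (c l l) (c (c l l) (d l (c l l))))))) (c (c (c (d (c l l) (c (d l (c l k)) (d (c l k) k))) (d (d l k) k)) k) k))))))) (A (B (A (O (c (c (c l l) (c l l)) (c (c (c l (c l k)) k)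 k))) (O (c (c (c l l) (c l (c l l))) (c (c (c l (d l k)) k) k)))) (A (O (c (c (c (c l l) l) (c l l)) (c (c (c l l) k) k))) (O (c (c (c l l) (c l l)) (c (c (c l (c l k)) k) k))))) (B (A (O (c (c (c l l) (c (c l l) (c l l))) (c (c (c (c l l) (d l k)) k) k))) (B (O (c (c (c l l) (c (c l l) (c (c l l) (d l (c l l))))) (c (c (c (d l (c l l)) (d (c l k) k)) k) k))) (O (c (c (c l l) (c (c l l) (c l (c l l)))) (c (c (c (c l l) (d l k)) k) k))))) (A (O (c (c (c l l) (c l (c l l))) (c (c (c l (d l k)) k) k))) (B (A (O (c (c (c l l) (c l l)) (c (c (c l l) k) k))) (O (c (c (c l l) (c l (c l l))) (c (c (c l (c l k)) k) k)))) (A (O (c (c (c l l) (c l l)) (c (c (c l l) k) k))) (O (c (c (c l l) (c l l)) (c (c (c l l) k) k))))))))) (B (A s s) (A (B (A (B (A s s) (A (O (c (c (c l l) (c (c l l) (c (c l l) (d l l)))) (c (c (c (d l l) (d l k)) k) k))) s)) s) (A (B (A (O (c (c (c l l) (c (c l l) (c l l))) (c (c (c l (d l k)) k) k))) (O (c (c (c l l) (c (c l l)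 (c (c l l) (c l l)))) (c (c (c (d l l) (d l k)) k) k)))) (A (O (c (c (c l l) (c l l)) (c (c (c l l) k) k))) (O (c (c (c l l) (c (c l l) (c l l))) (c (c (c l (c l k)) k) k))))) (B s (A (O (c (c (c l l) (c (c l l) (c l (c l l)))) (c (c (c (c l l) (d l k)) k) k))) s)))) (B s (A s s)))))

theorem s01_r100 : Sound P01 32768 8192 0 16384 :=
  chkOut2_sound P01 KK tr01_r100 32768 8192 0 16384 (by decide +kernel)

end Vale.Agent.P154.D3.K0
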