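import Vale.Agent.P154.D3.K0.Charts

set_option maxRecDepth 100000

namespace Vale.Agent.P154.D3.K0

open Cert InT OutT

/-- Certificate tree. -/
def tr01_r1011111 : OutT :=
(A (B (A (B (A (O (c (c l l) (c (c l k) k))) (O (c (c l l) (c (c l k) k)))) (O (c (c l l) (c (c l k) k)))) (B (A (O (c (c l l) (c (c l k) k))) (O (c (c l l) (c (c l k) k)))) (A (O (c (c l l) (c (c l k) k))) (O (c (c l l) (c (c l k) k)))))) (A (B (O (c (c l l) (c (c l k) k))) (O (c (c l l) (c (c l k) k)))) (B (A (O (c (c l l) (c (c l k) k))) (O (c (c l l) (c (c l k) k)))) (A (O (c (c l l) (c (c l k) k))) (O (c (c l l) (c (c l k) k))))))) (B (A (B (A (O (c (c l l) (c (c l k) k))) (O (c (c l l) (c (c l k) k)))) (A (O (c (c l l) (c (c l k) k))) (O (c (c l l) (c (c l k) k))))) (B (A (O (c (c l l) (c (c l k) k))) (O (c (c l l) (c (c l k) k)))) (A (O (c (c l l) (c (c l k) k))) (O (c (c l l) (c (c l k) k)))))) (A (B (A (O (c (c l l) (c (c l k) k))) (O (c (c l l) (c (c l k) k)))) (A (O (c (c l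 l) (c (c l k) k))) (O (c (c l l) (c (c l k) k))))) (B (A (O (c (c l l) (c (c l k) k))) (O (c (c l l) (c (c l k) k)))) (A (O (c (c l l) (c (c l k) k))) (O (c (c l l) (c (c l k) k))))))))

theorem s01_r1011111 : Sound P01 45056 2048 57344 4096 :=
  chkOut2_sound P01 KK tr01_r1011111 45056 2048 57344 4096 (by decide +kernel)

end Vale.Agent.P154.D3.K0
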