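import Vale.Agent.P154.D3.K0.Charts

set_option maxRecDepth 100000

namespace Vale.Agent.P154.D3.K0

open Cert InT OutT

/-- Certificate tree. -/
def tr01_r11100 : OutT :=
(A (B s (A (B s (A s s)) s)) (B s (A s s)))

theorem s01_r11100 : Sound P01 49152 4096 32768 8192 :=
  chkOut2_sound P01 KK tr01_r11100 49152 4096 32768 8192 (by decide +kernel)

end Vale.Agent.P154.D3.K0
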