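import Vale.Agent.P154.D3.K0.Charts

set_option maxRecDepth 100000

namespace Vale.Agent.P154.D3.K0

open Cert InT OutT

/-- Certificate tree. -/
def tr01_r11111010 : OutT :=
(B (A (B s (A s s)) (B s (A s s))) (A (B (A (B (A s s) (A (B (O (c l (c l k))) (O (c l (c l k)))) (B (O (c l (c l k))) (O (c l (c l k)))))) (B (A s s) (A (B (O (c l (c l k))) (O (c l (c l k)))) (B s (O (c l (c l k))))))) (A (B (A (O (c l (c l k))) (B (O (c l (c l k))) (O (c l (c l k))))) (A (O (c l (c l k))) (O (c l (c l k))))) (B (A (B (O (c l (c l k))) (O (c l (c l k)))) (B (O (c l (c l k))) (O (c l (c l k))))) (A (B (O (c l (c l k))) (O (c l (c l k)))) (B (O (c l (c l k))) (O (c l (c l k)))))))) (B (A (B (A s s) (A (B s (O (c l (c l k)))) (B s (A s s)))) (B s (A (B s (A s s)) s))) (A (B (A (B (O (c l (c l k))) (O (c l (c l k)))) (B (O (c l (c l k))) (O (c l (c l k))))) (A (B (O (c l (c l k))) (O (c l (c l k)))) (B (O (c l (c l k))) (O (c l (c l k)))))) (B (A (B (A (O (c l (c l k))) (O (c l (c l k))))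 (A (O (c l (c l k))) (O (c l (c l k))))) (B (A (O (c l (c l k))) (O (c l (c l k)))) (A (O (c l (c l k))) (O (c l (c l k)))))) (A (B (O (c l (c l k))) (O (c l (c l k)))) (B (A (O (c l (c l k))) (O (c l (c l k)))) (O (c l (c l k))))))))))

theorem s01_r11111010 : Sound P01 57344 1024 57344 4096 :=
  chkOut2_sound P01 KK tr01_r11111010 57344 1024 57344 4096 (by decide +kernel)

end Vale.Agent.P154.D3.K0
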