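import Vale.Agent.P154.D3.K0.Charts

set_option maxRecDepth 100000

namespace Vale.Agent.P154.D3.K0

open Cert InT OutT

/-- Certificate tree. -/
def tr10_r0001 : OutT :=
(A (B (A (O (c (c (c (c (c (c l l) (c l l)) (c (c l l) l)) (c (c l l) (c l l))) (c (c (c l l) (c l l)) (c (d l l) (d l l)))) (c (c (d (c l l) (c l (c l l))) (d (d l l) (d (c l l) (c l l)))) (d (d k (c k k)) (c (d (c l l) (c l l)) (d (c k k) (c l l))))))) (O (c (c (c (c (c l (c l l)) (c (c l l) l)) (c (c l l) (c l l))) (c (c (c l l) (c l l)) (c (c l l) (d l l)))) (c (c (c (d l l) (d l (c l l))) (d (d l l) (d (c l l) (c l l)))) (d (d k (c k k)) (c (d (c l l) (c l l)) (d (c k k) (c l l)))))))) (A (O (c (c (c (c (c (c l l) (c l l)) (c (c l l) l)) (c (c l l) (c l l))) (c (c (c l l) (c l l)) (c (d l l) (d l l)))) (c (c (d (c l l) (c l (c l l))) (d (d l l) (d (c l l) (c l l)))) (d (d k (c k k)) (c (d (c l l) (c l l)) (d (c k k) (c l l))))))) (O (c (c (c (c (c l (c l l)) (c (c l l)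 l)) (c (c l l) (c l l))) (c (c (c l l) (c l l)) (c (c l l) (d l l)))) (c (c (c (d l l) (d l (c l l))) (d (d l l) (d (c l l) (c l l)))) (d (d k (c k k)) (c (d (c l l) (c l l)) (d (c k k) (c l l))))))))) (B (A (O (c (c (c (c (c l l) (c l l)) (c (c l l) (c l l))) (c (c l (c l l)) (c (c l l) (c l l)))) (c (c (c (d l l) (d l l)) (d (d l l) (d (c l l) (c l l)))) (d (d k (c k k)) (c (d (c l l) (c l l)) (d (c k k) (c l l))))))) (O (c (c (c (c (c l l) (c l l)) (c (c l l) l)) (c (c l l) (c (c l l) (c l l)))) (c (c (c (d l l) (d l l)) (d (d l l) (d (c l l) (c l l)))) (d (d k (c k k)) (c (d (c l l) (c l l)) (d (c k k) (c l l)))))))) (A (O (c (c (c (c (c l l) (c l l)) (c (c l l) (c l l))) (c (c l (c l l)) (c (c l l) (d l l)))) (c (c (c (d l l) (d l (c l l))) (d (d l l) (d (c l l) (c l l)))) (d (d k (c k k)) (c (d (c l l) (c l l)) (d (c k k) (c l l))))))) (O (c (c (c (c (c l l) (c l l)) (c (c l l) (c l l))) (c (c l l) (c (c l l) (c l l)))) (c (c (c (d l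 l) (d l l)) (d (d l l) (d (c l l) (c l l)))) (d (d k (c k k)) (c (d (c l l) (c l l)) (d (c k k) (c l l))))))))))

theorem s10_r0001 : Sound P10 4096 2048 0 32768 :=
  chkOut2_sound P10 KK tr10_r0001 4096 2048 0 32768 (by decide +kernel)

end Vale.Agent.P154.D3.K0
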