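import Vale.Agent.P154.D3.K0.Charts

set_option maxRecDepth 100000

namespace Vale.Agent.P154.D3.K0

open Cert InT OutT

/-- Certificate tree. -/
def tr10_r010 : OutT :=
(B (A (B (O (c (c (c (c (c l l) (c l l)) (c (c l l) (c l l))) (c (c (c l l) (c l l)) (c (c l l) (c l l)))) (c (c (d l (c l l)) (d (c l l) (d (c l l) (c l l)))) (d (c k k) (c (d (c l l) (c l l)) (d (d k (c k k)) (c l l))))))) (O (c (c (c (c (c l l) (c l l)) (c (c l l) (c l l))) (c (c (c l l) (c l l)) (c (c l l) (d l l)))) (c (c (d (c l l) (c l l)) (d (c l l) (d (c l l) (c l l)))) (d (c k k) (c (d (d l (c l l)) (c l l)) (d (d k (c k k)) (c l (c l l))))))))) (B (O (c (c (c (c l (c l l)) (c l l)) (c (c l l) (c l (c l l)))) (c (c (d l (c l l)) (d (c l l) (d (c l l) (c l l)))) (d (c k k) (c (d (c l (d k l)) (c l l)) (d (c k k) (c (c l l) (d (c k k) l)))))))) (O (c (c (c (c l l) (c (c l l) (c l l))) (c (c (c l l) (c l l)) (d (c l l) (c l l)))) (c (c (d (c l l) (c l l)) (d (c l (c k k))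 (d (c l l) (c l l)))) (d (c k k) (c (d (c (c l k) (d k l)) (c l (c l l))) (d (c k k) (c (d (c l k) l) (d (c k k) (c l l))))))))))) (A (B (O (c (c (c (c l (c l l)) (c (c (c l l) (c l l)) (c (c l l) (c l l)))) (c (c (d (c l l) l) (d l l)) (d (c l l) (c l l)))) (c (c (d (c l l) (c l (c l l))) (d (c l l) (d (c l l) (c l l)))) (d (c k k) (c (d (c l (c k k)) (c l l)) (d (c k k) (c (c l l) (c l l)))))))) (O (c (c (c (c l (c l (c l l))) (c (c (c l l) (d l l)) (d (c l l) (c l l)))) (c (c (d (c l l) (c l l)) (d (c l l) (c l l))) (d (c (c l l) l) (c (c l l) (c l l))))) (c (c (d (c l l) (c (c l l) (c l l))) (d (c l (c k k)) (d (c l l) (c l l)))) (d (c k k) (c (d (c (c l k) (d k l)) (c l (c l l))) (d (c k k) (c (c l l) (c l l))))))))) (B (O (c (c (c (c l l) (c l (c l l))) (c (c (c l l) (d l l)) (d (c l l) (c l l)))) (c (c (d (c l l) (c l (c l l))) (d (c (c l l) (d k l)) (d (c l l) (c l l)))) (d (c k k) (c (d (c (d k l) (d k (c k k))) (c (c l l) (d l l)))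 (d (c k k) (c (d (c l k) (c l l)) (d (c k k) (c l (c l l)))))))))) (A (O (c (c (c l l) (c (c l l) (d (c l l) (c l l)))) (c (c (d (c l l) (c l l)) (d (c l l) (d l l))) (d (c k k) (c (d (c l l) (c l l)) (d (d k (c k k)) (c l l))))))) (O (c (c (c l l) (c (c l l) (d l l))) (c (d (c (c l l) (d l l)) (c (c l l) (d l l))) (d (c k k) (c (d (c l l) (c l l)) (d (d k (c k k)) (c l (c l l))))))))))))

theorem s10_r010 : Sound P10 16384 4096 0 32768 :=
  chkOut2_sound P10 KK tr10_r010 16384 4096 0 32768 (by decide +kernel)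

end Vale.Agent.P154.D3.K0
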