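import Vale.Agent.P154.D3.K0.Charts

set_option maxRecDepth 100000

namespace Vale.Agent.P154.D3.K0

open Cert InT OutT

/-- Certificate tree. -/
def tr10_r10001 : OutT :=
(A (B (A (B (A (O (c (c l (c l l)) (c (d (d (c l l) l) (c l l)) (d (c k k) (c (d l l) (d (d k (c k k)) (c l l))))))) (O (c (c l (c l l)) (c (d (d (d (c l k) l) l) (c l l)) (d (c k k) (c (d (c l l) l) (d (d k (c k k)) (d (c l l) l)))))))) (A (O (c (c l (c l l)) (c (d (d (d (c l k) l) l) (c l l)) (d (c k k) (c (d l l) (d (d k (c k k)) (c l l))))))) (O (c (c l (c l l)) (c (d (d (c l (d k l)) (c l l)) (c l l)) (d (c k k) (c (d (d l l) l) (d (d k (c k k)) (d (c l l) l))))))))) (B (A (O (c (c l (c l l)) (c (d (d (c l (d k (d k l))) (c l l)) (c l (c l l))) (d (c k k) (c (d (d (c k k) l) l) (d (d k (c k k)) (d (c l l) (c l l)))))))) (O (c (c l (c l l)) (c (d (c l (d (c k k) (c l l))) (c l (c l l))) (d (c k k) (c (d (d (c k k) l) l) (d (c k k) (c l (d (d k l) l))))))))) (A (O (c (c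 l (c l l)) (c (d (d (c l (c k k)) (c l l)) (c l l)) (d (c k k) (c (d (d (c k k) l) l) (d (d k (c k k)) (d (c l (c k k)) (c l l)))))))) (O (c (c l (c l l)) (c (d (c l (d (c k k) (c l l))) (c l (c l l))) (d (c k k) (c (d (d (c k k) l) l) (d (c k k) (c (c l l) (d (d k l) l))))))))))) (A (B (A (O (c (c l (c l l)) (c (d (d (d (c l k) l) l) (c l l)) (d (c k k) (c (d (c l l) l) (d (d k (c k k)) (d l l))))))) (O (c (c l (c l l)) (c (d (d (c l (d k l)) (c l l)) (c l l)) (d (c k k) (c (d (d (c k k) l) l) (d (d k (c k k)) (d (c l l) l)))))))) (A (O (c (c l (c l l)) (c (d (d (c l (d k l)) l) (c l l)) (d (c k k) (c (d (c l l) l) (d (d k (d (c k k) l)) (d l l))))))) (O (c (c l (c l l)) (c (d (d (c l (d k (c k k))) (c l l)) (c l l)) (d (c k k) (c (d (d (c k k) l) l) (d (d k (c k k)) (d (c l l) l))))))))) (B (A (O (c (c l (c l l)) (c (d (d (c l (c k k)) (c l l)) (c l l)) (d (c k k) (c (d (d (c k k) l) l) (d (d k (c k k)) (c l (d (d k l) l)))))))) s) (A (O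 (c (c l l) (c (d (c l (d (c k k) l)) (c l l)) (d (c k k) (c (d (d (c k k) l) l) (d (c k k) (c l (d (d k l) l)))))))) s)))) s)

theorem s10_r10001 : Sound P10 32768 4096 16384 8192 :=
  chkOut2_sound P10 KK tr10_r10001 32768 4096 16384 8192 (by decide +kernel)

end Vale.Agent.P154.D3.K0
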